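/-
Helper82 — S0175 project, Part II, package HY-b: the potential-theory fields of `TwoShellHyp`
for the concrete two-shell instance, in the shapes of `Crest.Agent.Helper32.Spec`
(`geomH_bddu`, `geomH_adm`, `geomH_contact`, `geomH_rigAA`, `geomH_rigBA`).
Proofs: `HYbCore.lean` + `HYbLeaf.lean`; here the dependency record is filled from the landed
packages SH-a (helper62), G1 (helper31), CG (helper52), RG1 (helper62) and the core of RG3
(helper42).
-/
import Crest.Agent.Helper82.Geom.HYbLeaf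
import Crest.Agent.Helper62.Geom.SHa
import Crest.Agent.Helper52.Geom.CG
import Crest.Agent.Helper31.Geom.G1
import Crest.Agent.Helper62.Geom.RG1
import Crest.Agent.Helper42.Geom.RG3Core

set_option autoImplicit false
open MeasureTheory Set
open scoped ENNReal
open Crest.AnalysisR.OT
open Crest.Agent.Helper32

namespace Crest.Agent.Helper82

/-- the dependency record of package HY-b, from the landed geometry packages -/
theorem hybDeps {k : ℕ} (s w2 ε : ℝ) (hp : GoodParams s w2 ε) : HYbDeps k s w2 ε :=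
  HYbLeafDeps.toDeps hp
    { wMin_pos := Crest.Agent.Helper62.SHa.wMin_pos s hp.hs
      shG_nonneg := fun w hw hw' => Crest.Agent.Helper62.SHa.shG_nonneg s hp.hs w hw hw'
      shG_le_three := fun w hw hw' => Crest.Agent.Helper62.SHa.shG_le_three s hp.hs w hw hw'
      shH_pos := fun w hw hw' => Crest.Agent.Helper62.SHa.shH_pos s hp.hs w hw hw'
      shL12_ge_one := fun w hw hw' => Crest.Agent.Helper62.SHa.shL12_ge_one s hp.hs w hw hw'
      wA_spec := fun x hx => Crest.Agent.Helper62.wA_spec s w2 hp.hs hp.hw2 hp.hw2' x hx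
      pointwise_ineq := fun w hw hw' x y z =>
        Crest.Agent.Helper31.pointwise_ineq s hp.hs w hw hw' x y z
      pointwise_eq := fun w hw hw' x y z h =>
        Crest.Agent.Helper31.pointwise_eq s hp.hs w hw hw' x y z h
      pointwise_contact := fun w hw hw' x y z h1 h2 h3 h4 h5 h6 =>
        Crest.Agent.Helper31.pointwise_contact s hp.hs w hw hw' x y z h1 h2 h3 h4 h5 h6
      contact_geom := fun w hw hw' x hx hroot hH =>
        Crest.Agent.Helper52.contact_geom s hp.hs w hw hw' x hx hroot hH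
      rigid := fun w hw hw' x y z hx h12 h23 h4 h5 h6 =>
        Crest.Agent.Helper52.rigid s hp.hs w hw hw' x y z hx h12 h23 h4 h5 h6
      psiPlus_bplus := fun x hx =>
        (Crest.Agent.Helper42.psiPlus_bplus_of s w2 (Crest.Agent.Helper62.SHa.wMin_pos s hp.hs)
          hp.hw2'
          (fun x hx => Crest.Agent.Helper62.wA_spec s w2 hp.hs hp.hw2 hp.hw2' x hx)
          (fun w hw hw' => Crest.Agent.Helper62.Winv_spec s w2 hp.hs hp.hw2 hp.hw2' w hw hw')
          x hx).1 }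

section HY
variable {k : ℕ} (s w2 ε : ℝ) (hp : GoodParams s w2 ε)
include hp

theorem geomH_bddu : ∃ M : ℝ, ∀ p : ↥(Ybase k ε) × ℝ,
    |uG s w2 ε (PhiA ε p)| ≤ M ∧ |uG s w2 ε (PhiB s w2 ε p)| ≤ M :=
  bddu_core hp (hybDeps s w2 ε hp)

theorem geomH_adm (x y z : MS k) (_hx : x ∈ tsS (PhiA ε) (PhiB s w2 ε))
    (_hy : y ∈ tsS (PhiA ε) (PhiB s w2 ε)) (_hz : z ∈ tsS (PhiA ε) (PhiB s w2 ε)) :
    ENNReal.ofReal (uG s w2 ε x + uG s w2 ε y + uG s w2 ε z) ≤ tripleCostM s (x, y, z) :=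
  adm_core hp (hybDeps s w2 ε hp) x y z

theorem geomH_contact (b : ↥(Ybase k ε)) (t : ℝ) :
    tripleCostM s (PhiA ε (b, t), PhiB s w2 ε (b, t), PhiB s w2 ε (b, t + gG s w2 ε b)) =
      ENNReal.ofReal (uG s w2 ε (PhiA ε (b, t)) + uG s w2 ε (PhiB s w2 ε (b, t)) +
        uG s w2 ε (PhiB s w2 ε (b, t + gG s w2 ε b))) ∧
    0 ≤ uG s w2 ε (PhiA ε (b, t)) + uG s w2 ε (PhiB s w2 ε (b, t)) +
        uG s w2 ε (PhiB s w2 ε (b, t + gG s w2 ε b)) :=
  contact_core hp (hybDeps s w2 ε hp) b t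

theorem geomH_rigAA (p q : ↥(Ybase k ε) × ℝ) (z : MS k) (_hz : z ∈ tsS (PhiA ε) (PhiB s w2 ε)) :
    tripleCostM s (PhiA ε p, PhiA ε q, z) ≠
      ENNReal.ofReal (uG s w2 ε (PhiA ε p) + uG s w2 ε (PhiA ε q) + uG s w2 ε z) :=
  rigAA_core hp (hybDeps s w2 ε hp) p q z

theorem geomH_rigBA (b : ↥(Ybase k ε)) (t : ℝ) (q : ↥(Ybase k ε) × ℝ) (z : MS k)
    (_hz : z ∈ tsS (PhiA ε) (PhiB s w2 ε))
    (h : tripleCostM s (PhiB s w2 ε (b, t), PhiA ε q, z) =
      ENNReal.ofReal (uG s w2 ε (PhiB s w2 ε (b, t)) + uG s w2 ε (PhiA ε q) + uG s w2 ε z)) :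
    PhiA ε q = PhiA ε (b, t) ∨ PhiA ε q = PhiA ε (b, t - gG s w2 ε b) :=
  rigBA_core hp (hybDeps s w2 ε hp) b t q z h

end HY

end Crest.Agent.Helper82
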