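/-
Helper82 — S0175 project, Part II, package HY-b (potential theory of the concrete two-shell
instance): the fields `bddu`, `adm`, `contact`, `contact_nonneg`, `rigAA`, `rigBA` of
`TwoShellHyp` for the data of `Crest.Agent.Helper32.GeomDefs`.

This file proves them from an explicit list `HYbDeps` of facts supplied by the other geometry
packages (shape calculus SH-a, pointwise inequality G1, contact geometry CG, root functions RG,
structure HY-a, density DN); `HYb.lean` instantiates `HYbDeps` from the landed modules.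
-/
import Crest.Agent.Helper32.GeomDefs

set_option autoImplicit false
open MeasureTheory Set
open scoped ENNReal
open Crest.AnalysisR.OT
open Crest.Agent.Helper32

namespace Crest.Agent.Helper82

/-- the facts about the concrete geometry used by package HY-b -/
structure HYbDeps (k : ℕ) (s w2 ε : ℝ) : Prop where
  wMin_pos : 0 < wMin s
  shG_nonneg : ∀ w : ℝ, 0 < w → 2 * w ^ 2 < 1 → 0 ≤ shG s w
  shG_le_three : ∀ w : ℝ, 0 < w → 2 * w ^ 2 < 1 → shG s w ≤ 3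
  shH_pos : ∀ w : ℝ, wMin s < w → 2 * w ^ 2 < 1 → 0 < shH s w
  shL12_ge_one : ∀ w : ℝ, 0 < w → 2 * w ^ 2 < 1 → 1 ≤ shL12 s w
  torus_sub : (torus ε : Set (MS k)) ⊆ Adom s w2
  wA_spec : ∀ x : MS k, x ∈ Adom s w2 →
    wMin s < wA s w2 x ∧ wA s w2 x < w2 ∧ shF s (wA s w2 x) (‖x.1‖ ^ 2) (‖x.2‖ ^ 2) = 0
  pointwise_ineq : ∀ w : ℝ, 0 < w → 2 * w ^ 2 < 1 → ∀ x y z : MS k,
    ENNReal.ofReal (u1 s w x + UB s y + UB s z) ≤ tripleCostM s (x, y, z)
  pointwise_eq : ∀ w : ℝ, 0 < w → 2 * w ^ 2 < 1 → ∀ x y z : MS k,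
    tripleCostM s (x, y, z) ≤ ENNReal.ofReal (u1 s w x + UB s y + UB s z) →
    dM x y = shL12 s w ∧ dM x z = shL12 s w ∧ dM y z = shL23 s w ∧
      ((shP w / w : ℝ) : ℂ) * x.1 + (w : ℂ) * (y.1 + z.1) = 0 ∧
      y.2 = -(shC w) • x.2 ∧ z.2 = -(shC w) • x.2
  pointwise_contact : ∀ w : ℝ, 0 < w → 2 * w ^ 2 < 1 → ∀ x y z : MS k,
    dM x y = shL12 s w → dM x z = shL12 s w → dM y z = shL23 s w →
    ((shP w / w : ℝ) : ℂ) * x.1 + (w : ℂ) * (y.1 + z.1) = 0 →
    y.2 = -(shC w) • x.2 → z.2 = -(shC w) • x.2 →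
    u1 s w x + UB s y + UB s z = shG s w ∧
      tripleCostM s (x, y, z) = ENNReal.ofReal (u1 s w x + UB s y + UB s z)
  contact_geom : ∀ w : ℝ, 0 < w → 2 * w ^ 2 < 1 → ∀ x : MS k, x.1 ≠ 0 →
    shF s w (‖x.1‖ ^ 2) (‖x.2‖ ^ 2) = 0 → 0 ≤ shH s w →
    dM x (bvert s w 1 x) = shL12 s w ∧ dM x (bvert s w (-1) x) = shL12 s w ∧
      dM (bvert s w 1 x) (bvert s w (-1) x) = shL23 s w ∧
      ((shP w / w : ℝ) : ℂ) * x.1 + (w : ℂ) * ((bvert s w 1 x).1 + (bvert s w (-1) x).1) = 0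
  rigid : ∀ w : ℝ, 0 < w → 2 * w ^ 2 < 1 → ∀ x y z : MS k, x.1 ≠ 0 →
    dM x y = dM x z → dM y z = shL23 s w →
    ((shP w / w : ℝ) : ℂ) * x.1 + (w : ℂ) * (y.1 + z.1) = 0 →
    y.2 = -(shC w) • x.2 → z.2 = -(shC w) • x.2 →
    (y = bvert s w 1 x ∧ z = bvert s w (-1) x) ∨ (y = bvert s w (-1) x ∧ z = bvert s w 1 x)
  psiPlus_bplus : ∀ x : MS k, x ∈ Adom s w2 → psiPlus s w2 (bplus s w2 x) = x
  PhiA_mem : ∀ p : ↥(Ybase k ε) × ℝ, PhiA ε p ∈ torus ε
  PhiB_shift : ∀ (b : ↥(Ybase k ε)) (t : ℝ),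
    PhiB s w2 ε (b, t + gG s w2 ε b) = bminus s w2 (PhiA ε (b, t))

/-! ### the cost on the model space -/

section cost
variable {k : ℕ}

theorem dM_nonneg (p q : MS k) : 0 ≤ dM p q := Real.sqrt_nonneg _

theorem dM_comm (p q : MS k) : dM p q = dM q p := by
  unfold dM; rw [norm_sub_rev p.1, norm_sub_rev p.2]

theorem pairCostM_comm (s : ℝ) (p q : MS k) : pairCostM s p q = pairCostM s q p := by
  unfold pairCostM; rw [dM_comm]

theorem tripleCostM_apply (s : ℝ) (x y z : MS k) :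
    tripleCostM s (x, y, z) = pairCostM s x y + pairCostM s x z + pairCostM s y z := rfl

theorem tripleCostM_symm12 (s : ℝ) (x y z : MS k) :
    tripleCostM s (y, x, z) = tripleCostM s (x, y, z) := by
  simp only [tripleCostM_apply]
  rw [pairCostM_comm s y x, add_right_comm]

theorem tripleCostM_symm23 (s : ℝ) (x y z : MS k) :
    tripleCostM s (x, z, y) = tripleCostM s (x, y, z) := by
  simp only [tripleCostM_apply]
  rw [pairCostM_comm s z y, add_comm (pairCostM s x z)]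

theorem pairCostM_le12 (s : ℝ) (x y z : MS k) : pairCostM s x y ≤ tripleCostM s (x, y, z) := by
  rw [tripleCostM_apply, add_assoc]; exact le_self_add

/-- points at (model) distance at most `D` cost at least `D ^ (-s)` -/
theorem ofReal_rpow_le_pairCostM {s : ℝ} (hs : 0 < s) {p q : MS k} {D : ℝ} (h : dM p q ≤ D) :
    ENNReal.ofReal (D ^ (-s)) ≤ pairCostM s p q := by
  unfold pairCostM
  rcases (dM_nonneg p q).eq_or_lt with h0 | h0
  · rw [← h0, ENNReal.ofReal_zero, ENNReal.zero_rpow_of_neg (by linarith)]; exact le_top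
  · rw [ENNReal.ofReal_rpow_of_pos h0]
    exact ENNReal.ofReal_le_ofReal (Real.rpow_le_rpow_of_nonpos h0 h (by linarith))

end cost

/-! ### the torus -/

section torus
variable {k : ℕ}

theorem torus_bounds {ε : ℝ} (hε : 0 < ε) {x : MS k} (hx : x ∈ torus ε) :
    ε < ‖x.1‖ ^ 2 ∧ ‖x.1‖ ^ 2 < 3 * ε ∧ ‖x.2‖ < ε := by
  have h : (‖x.1‖ ^ 2 - 2 * ε) ^ 2 + ‖x.2‖ ^ 2 < ε ^ 2 := hx
  have h1 : (‖x.1‖ ^ 2 - 2 * ε) ^ 2 < ε ^ 2 := by nlinarith [sq_nonneg ‖x.2‖]
  have h2 : ‖x.2‖ ^ 2 < ε ^ 2 := by nlinarith [sq_nonneg (‖x.1‖ ^ 2 - 2 * ε)]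
  have h3 := abs_lt.1 (abs_lt_of_sq_lt_sq h1 hε.le)
  refine ⟨by linarith [h3.1], by linarith [h3.2], ?_⟩
  by_contra hc
  have hc' : ε ≤ ‖x.2‖ := not_lt.1 hc
  nlinarith [norm_nonneg x.2]

theorem dM_lt_of_torus {ε : ℝ} (hε : 0 < ε) {x y : MS k} (hx : x ∈ torus ε) (hy : y ∈ torus ε) :
    dM x y < 2 * Real.sqrt (3 * ε) + 2 * ε := by
  obtain ⟨-, hx1, hx2⟩ := torus_bounds hε hx
  obtain ⟨-, hy1, hy2⟩ := torus_bounds hε hy
  have hx1' : ‖x.1‖ < Real.sqrt (3 * ε) := (Real.lt_sqrt (norm_nonneg _)).2 hx1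
  have hy1' : ‖y.1‖ < Real.sqrt (3 * ε) := (Real.lt_sqrt (norm_nonneg _)).2 hy1
  have ha : ‖x.1 - y.1‖ < 2 * Real.sqrt (3 * ε) := by
    have := norm_sub_le x.1 y.1; linarith
  have hb : ‖x.2 - y.2‖ < 2 * ε := by
    have := norm_sub_le x.2 y.2; linarith
  have hle : dM x y ≤ ‖x.1 - y.1‖ + ‖x.2 - y.2‖ := by
    unfold dM
    rw [Real.sqrt_le_iff]
    refine ⟨add_nonneg (norm_nonneg _) (norm_nonneg _), ?_⟩
    nlinarith [norm_nonneg (x.1 - y.1), norm_nonneg (x.2 - y.2)]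
  linarith

/-- for `ε ≤ 1/16` two points of the torus are at distance `< 1` -/
theorem torus_diam_lt_one {ε : ℝ} (hε : 0 < ε) (hε1 : ε ≤ 1 / 16) :
    2 * Real.sqrt (3 * ε) + 2 * ε < 1 := by
  have h : Real.sqrt (3 * ε) < 7 / 16 := by
    rw [Real.sqrt_lt' (by norm_num)]
    nlinarith
  linarith

end torus

/-! ### the potential -/

section potential
variable {k : ℕ} {s w2 ε : ℝ}

theorem uG_of_mem {x : MS k} (h : x ∈ torus ε) : uG s w2 ε x = u1 s (wA s w2 x) x := by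
  unfold uG; exact if_pos h

theorem uG_of_not_mem {x : MS k} (h : x ∉ torus ε) : uG s w2 ε x = UB s x := by
  unfold uG; exact if_neg h

theorem UB_nonpos (hs : 0 < s) (x : MS k) : UB s x ≤ 0 := by
  unfold UB
  have : 0 ≤ ‖x.1‖ ^ 2 + 2 * ‖x.2‖ ^ 2 := by positivity
  nlinarith

variable (hp : GoodParams s w2 ε) (D : HYbDeps k s w2 ε)
include hp D

/-- the shape of a torus point is admissible -/
theorem wA_torus {x : MS k} (hx : x ∈ torus ε) :
    x.1 ≠ 0 ∧ wMin s < wA s w2 x ∧ 0 < wA s w2 x ∧ 2 * (wA s w2 x) ^ 2 < 1 ∧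
      shF s (wA s w2 x) (‖x.1‖ ^ 2) (‖x.2‖ ^ 2) = 0 := by
  have hA : x ∈ Adom s w2 := D.torus_sub hx
  obtain ⟨h1, h2, h3⟩ := D.wA_spec x hA
  have hpos : 0 < wA s w2 x := lt_trans D.wMin_pos h1
  refine ⟨hA.1, h1, hpos, ?_, h3⟩
  have := hp.hw2'
  nlinarith

theorem u1_le {x : MS k} (hx : x ∈ torus ε) : u1 s (wA s w2 x) x ≤ 3 * (1 + s / 2) := by
  obtain ⟨-, -, hw, hw', -⟩ := wA_torus hp D hx
  have hG := D.shG_le_three _ hw hw'
  have hs := hp.hs
  have hP : 0 < shP (wA s w2 x) := by unfold shP; linarith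
  unfold u1
  have h1 : 0 ≤ ‖x.1‖ ^ 2 / (wA s w2 x) ^ 2 + 4 * ‖x.2‖ ^ 2 / (2 * (wA s w2 x) ^ 2 + 1) := by
    positivity
  have h2 : 0 ≤ s / 2 * shP (wA s w2 x) *
      (‖x.1‖ ^ 2 / (wA s w2 x) ^ 2 + 4 * ‖x.2‖ ^ 2 / (2 * (wA s w2 x) ^ 2 + 1)) := by
    positivity
  nlinarith

theorem uG_le (x : MS k) : uG s w2 ε x ≤ 3 * (1 + s / 2) := by
  have hs := hp.hs
  by_cases hx : x ∈ torus ε
  · rw [uG_of_mem hx]; exact u1_le hp D hx
  · rw [uG_of_not_mem hx]
    have := UB_nonpos hs x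
    linarith

/-- two torus points in positions 1, 2: the cost strictly exceeds the sum of the potentials -/
theorem two_torus12 {x y : MS k} (z : MS k) (hx : x ∈ torus ε) (hy : y ∈ torus ε) :
    ENNReal.ofReal (uG s w2 ε x + uG s w2 ε y + uG s w2 ε z) < tripleCostM s (x, y, z) := by
  have hs := hp.hs
  have hd := (dM_lt_of_torus hp.hε hx hy).le
  have h1 := ofReal_rpow_le_pairCostM hs hd
  have h2 := pairCostM_le12 s x y z
  have h3 : uG s w2 ε x + uG s w2 ε y + uG s w2 ε z ≤ 9 * (1 + s / 2) := by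
    have a := uG_le hp D x
    have b := uG_le hp D y
    have c := uG_le hp D z
    linarith
  have h4 : ENNReal.ofReal (9 * (1 + s / 2)) <
      ENNReal.ofReal ((2 * Real.sqrt (3 * ε) + 2 * ε) ^ (-s)) :=
    (ENNReal.ofReal_lt_ofReal_iff (lt_trans (by positivity) hp.hdiam)).2 hp.hdiam
  exact lt_of_le_of_lt (ENNReal.ofReal_le_ofReal h3) (lt_of_lt_of_le h4 (h1.trans h2))

theorem two_torus13 {x z : MS k} (y : MS k) (hx : x ∈ torus ε) (hz : z ∈ torus ε) :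
    ENNReal.ofReal (uG s w2 ε x + uG s w2 ε y + uG s w2 ε z) < tripleCostM s (x, y, z) := by
  have h := two_torus12 hp D y hx hz
  rw [tripleCostM_symm23] at h
  rwa [add_right_comm]

theorem two_torus23 {y z : MS k} (x : MS k) (hy : y ∈ torus ε) (hz : z ∈ torus ε) :
    ENNReal.ofReal (uG s w2 ε x + uG s w2 ε y + uG s w2 ε z) < tripleCostM s (x, y, z) := by
  have h := two_torus13 hp D x hy hz
  rw [tripleCostM_symm12] at h
  rwa [add_comm (uG s w2 ε y) (uG s w2 ε x)] at h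

/-- base vertices are not in the torus (they are at distance `shL12 ≥ 1` from the apex) -/
theorem bvert_not_mem {x : MS k} (hx : x ∈ torus ε) {σ : ℝ} (hσ : σ = 1 ∨ σ = -1) :
    bvert s (wA s w2 x) σ x ∉ torus ε := by
  obtain ⟨hx1, hw1, hw, hw', hroot⟩ := wA_torus hp D hx
  obtain ⟨c1, c2, -, -⟩ := D.contact_geom _ hw hw' x hx1 hroot (D.shH_pos _ hw1 hw').le
  have hL := D.shL12_ge_one _ hw hw'
  have hd := torus_diam_lt_one hp.hε hp.hε1
  intro hmem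
  have h1 := dM_lt_of_torus hp.hε hx hmem
  rcases hσ with rfl | rfl
  · rw [c1] at h1; linarith
  · rw [c2] at h1; linarith

theorem bplus_not_mem {x : MS k} (hx : x ∈ torus ε) : bplus s w2 x ∉ torus ε :=
  bvert_not_mem hp D hx (Or.inl rfl)

theorem bminus_not_mem {x : MS k} (hx : x ∈ torus ε) : bminus s w2 x ∉ torus ε :=
  bvert_not_mem hp D hx (Or.inr rfl)

/-- the contact triangle of a torus point -/
theorem contact_torus {x : MS k} (hx : x ∈ torus ε) :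
    uG s w2 ε x + uG s w2 ε (bplus s w2 x) + uG s w2 ε (bminus s w2 x) = shG s (wA s w2 x) ∧
    tripleCostM s (x, bplus s w2 x, bminus s w2 x) =
      ENNReal.ofReal (uG s w2 ε x + uG s w2 ε (bplus s w2 x) + uG s w2 ε (bminus s w2 x)) := by
  obtain ⟨hx1, hw1, hw, hw', hroot⟩ := wA_torus hp D hx
  obtain ⟨c1, c2, c3, c4⟩ := D.contact_geom _ hw hw' x hx1 hroot (D.shH_pos _ hw1 hw').le
  obtain ⟨p1, p2⟩ := D.pointwise_contact _ hw hw' x (bvert s (wA s w2 x) 1 x)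
    (bvert s (wA s w2 x) (-1) x) c1 c2 c3 c4 rfl rfl
  rw [uG_of_mem hx, uG_of_not_mem (bplus_not_mem hp D hx), uG_of_not_mem (bminus_not_mem hp D hx)]
  exact ⟨p1, p2⟩

/-! ### the five statements -/

theorem adm_core (x y z : MS k) :
    ENNReal.ofReal (uG s w2 ε x + uG s w2 ε y + uG s w2 ε z) ≤ tripleCostM s (x, y, z) := by
  have hs := hp.hs
  by_cases hx : x ∈ torus ε
  · by_cases hy : y ∈ torus ε
    · exact (two_torus12 hp D z hx hy).le
    · by_cases hz : z ∈ torus ε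
      · exact (two_torus13 hp D y hx hz).le
      · obtain ⟨-, -, hw, hw', -⟩ := wA_torus hp D hx
        rw [uG_of_mem hx, uG_of_not_mem hy, uG_of_not_mem hz]
        exact D.pointwise_ineq _ hw hw' x y z
  · by_cases hy : y ∈ torus ε
    · by_cases hz : z ∈ torus ε
      · exact (two_torus23 hp D x hy hz).le
      · obtain ⟨-, -, hw, hw', -⟩ := wA_torus hp D hy
        rw [uG_of_not_mem hx, uG_of_mem hy, uG_of_not_mem hz]
        have h := D.pointwise_ineq _ hw hw' y x z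
        rw [tripleCostM_symm12] at h
        rwa [add_comm (UB s x)]
    · by_cases hz : z ∈ torus ε
      · obtain ⟨-, -, hw, hw', -⟩ := wA_torus hp D hz
        rw [uG_of_not_mem hx, uG_of_not_mem hy, uG_of_mem hz]
        have h := D.pointwise_ineq _ hw hw' z x y
        rw [tripleCostM_symm12, tripleCostM_symm23] at h
        have e : UB s x + UB s y + u1 s (wA s w2 z) z = u1 s (wA s w2 z) z + UB s x + UB s y := by
          ring
        rwa [e]
      · rw [uG_of_not_mem hx, uG_of_not_mem hy, uG_of_not_mem hz]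
        have a := UB_nonpos hs x
        have b := UB_nonpos hs y
        have c := UB_nonpos hs z
        rw [ENNReal.ofReal_of_nonpos (by linarith)]
        exact bot_le

theorem contact_core (b : ↥(Ybase k ε)) (t : ℝ) :
    tripleCostM s (PhiA ε (b, t), PhiB s w2 ε (b, t), PhiB s w2 ε (b, t + gG s w2 ε b)) =
      ENNReal.ofReal (uG s w2 ε (PhiA ε (b, t)) + uG s w2 ε (PhiB s w2 ε (b, t)) +
        uG s w2 ε (PhiB s w2 ε (b, t + gG s w2 ε b))) ∧
    0 ≤ uG s w2 ε (PhiA ε (b, t)) + uG s w2 ε (PhiB s w2 ε (b, t)) +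
        uG s w2 ε (PhiB s w2 ε (b, t + gG s w2 ε b)) := by
  have hx := D.PhiA_mem (b, t)
  obtain ⟨-, -, hw, hw', -⟩ := wA_torus hp D hx
  obtain ⟨h1, h2⟩ := contact_torus hp D hx
  rw [D.PhiB_shift b t]
  have e : PhiB s w2 ε (b, t) = bplus s w2 (PhiA ε (b, t)) := rfl
  rw [e]
  refine ⟨h2, ?_⟩
  rw [h1]
  exact D.shG_nonneg _ hw hw'

theorem bddu_core : ∃ M : ℝ, ∀ p : ↥(Ybase k ε) × ℝ,
    |uG s w2 ε (PhiA ε p)| ≤ M ∧ |uG s w2 ε (PhiB s w2 ε p)| ≤ M := by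
  have hs := hp.hs
  refine ⟨3 * (1 + s / 2), fun p => ?_⟩
  have hx := D.PhiA_mem p
  obtain ⟨hx1, hw1, hw, hw', hroot⟩ := wA_torus hp D hx
  obtain ⟨h1, -⟩ := contact_torus hp D hx
  have hG0 := D.shG_nonneg _ hw hw'
  have hUp := UB_nonpos hs (bplus s w2 (PhiA ε p))
  have hUm := UB_nonpos hs (bminus s w2 (PhiA ε p))
  rw [uG_of_not_mem (bplus_not_mem hp D hx), uG_of_not_mem (bminus_not_mem hp D hx)] at h1
  have hA_le := uG_le hp D (PhiA ε p)
  have hA_ge : 0 ≤ uG s w2 ε (PhiA ε p) := by linarith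
  constructor
  · rw [abs_of_nonneg hA_ge]; exact hA_le
  · have e : PhiB s w2 ε p = bplus s w2 (PhiA ε p) := rfl
    rw [e, uG_of_not_mem (bplus_not_mem hp D hx), abs_of_nonpos hUp]
    linarith

theorem rigAA_core (p q : ↥(Ybase k ε) × ℝ) (z : MS k) :
    tripleCostM s (PhiA ε p, PhiA ε q, z) ≠
      ENNReal.ofReal (uG s w2 ε (PhiA ε p) + uG s w2 ε (PhiA ε q) + uG s w2 ε z) :=
  (two_torus12 hp D z (D.PhiA_mem p) (D.PhiA_mem q)).ne'

end potential

/-! ### rotations and the apex parametrisation -/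

section rot
variable {k : ℕ}

theorem rotM_add (t a : ℝ) (x : MS k) : rotM (t + a) x = rotM a (rotM t x) := by
  unfold rotM
  refine Prod.ext ?_ rfl
  show Complex.exp (2 * (Real.pi : ℂ) * ((t + a : ℝ) : ℂ) * Complex.I) * x.1 =
    Complex.exp (2 * (Real.pi : ℂ) * (a : ℂ) * Complex.I) *
      (Complex.exp (2 * (Real.pi : ℂ) * (t : ℂ) * Complex.I) * x.1)
  rw [← mul_assoc, ← Complex.exp_add]
  congr 2
  push_cast
  ring

theorem PhiA_add (ε : ℝ) (b : ↥(Ybase k ε)) (t a : ℝ) :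
    PhiA ε (b, t + a) = rotM a (PhiA ε (b, t)) := by
  unfold PhiA
  exact rotM_add t a _

theorem norm_rotM_fst (t : ℝ) (x : MS k) : ‖(rotM t x).1‖ = ‖x.1‖ := by
  unfold rotM
  show ‖Complex.exp (2 * (Real.pi : ℂ) * (t : ℂ) * Complex.I) * x.1‖ = ‖x.1‖
  have h : (2 * (Real.pi : ℂ) * (t : ℂ) * Complex.I) = ((2 * Real.pi * t : ℝ) : ℂ) * Complex.I := by
    push_cast; ring
  rw [norm_mul, h, Complex.norm_exp_ofReal_mul_I, one_mul]

theorem PhiA_base (ε : ℝ) (b : ↥(Ybase k ε)) (t : ℝ) :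
    (‖(PhiA ε (b, t)).1‖, (PhiA ε (b, t)).2) = b.1 := by
  have hb : 0 < b.1.1 := b.2.1
  refine Prod.ext ?_ rfl
  show ‖(rotM t (((b.1.1 : ℝ) : ℂ), b.1.2)).1‖ = b.1.1
  rw [norm_rotM_fst]
  show ‖((b.1.1 : ℝ) : ℂ)‖ = b.1.1
  rw [Complex.norm_real, Real.norm_eq_abs, abs_of_pos hb]

theorem PhiA_eq_base {ε : ℝ} {b b' : ↥(Ybase k ε)} {t t' : ℝ}
    (h : PhiA ε (b, t) = PhiA ε (b', t')) : b = b' := by
  apply Subtype.ext
  rw [← PhiA_base ε b t, ← PhiA_base ε b' t', h]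

end rot

section rigBA
variable {k : ℕ} {s w2 ε : ℝ} (hp : GoodParams s w2 ε) (D : HYbDeps k s w2 ε)
include hp D

omit hp in
theorem bplus_injOn {x y : MS k} (hx : x ∈ torus ε) (hy : y ∈ torus ε)
    (h : bplus s w2 x = bplus s w2 y) : x = y := by
  rw [← D.psiPlus_bplus x (D.torus_sub hx), h, D.psiPlus_bplus y (D.torus_sub hy)]

theorem rigBA_core (b : ↥(Ybase k ε)) (t : ℝ) (q : ↥(Ybase k ε) × ℝ) (z : MS k)
    (h : tripleCostM s (PhiB s w2 ε (b, t), PhiA ε q, z) =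
      ENNReal.ofReal (uG s w2 ε (PhiB s w2 ε (b, t)) + uG s w2 ε (PhiA ε q) + uG s w2 ε z)) :
    PhiA ε q = PhiA ε (b, t) ∨ PhiA ε q = PhiA ε (b, t - gG s w2 ε b) := by
  have hx₀ := D.PhiA_mem (b, t)
  have ha := D.PhiA_mem q
  have ey : PhiB s w2 ε (b, t) = bplus s w2 (PhiA ε (b, t)) := rfl
  have hy₁ : PhiB s w2 ε (b, t) ∉ torus ε := by rw [ey]; exact bplus_not_mem hp D hx₀
  by_cases hz : z ∈ torus ε
  · exact absurd h (two_torus23 hp D _ ha hz).ne'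
  · obtain ⟨ha1, -, hw, hw', -⟩ := wA_torus hp D ha
    rw [uG_of_not_mem hy₁, uG_of_mem ha, uG_of_not_mem hz] at h
    have h' : tripleCostM s (PhiA ε q, PhiB s w2 ε (b, t), z) ≤
        ENNReal.ofReal (u1 s (wA s w2 (PhiA ε q)) (PhiA ε q) + UB s (PhiB s w2 ε (b, t)) +
          UB s z) := by
      rw [tripleCostM_symm12, h, add_comm (UB s (PhiB s w2 ε (b, t)))]
    obtain ⟨e1, e2, e3, e4, e5, e6⟩ := D.pointwise_eq _ hw hw' _ _ _ h'
    rcases D.rigid _ hw hw' _ _ _ ha1 (e1.trans e2.symm) e3 e4 e5 e6 with ⟨hy, -⟩ | ⟨hy, -⟩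
    · left
      have hy' : bplus s w2 (PhiA ε (b, t)) = bplus s w2 (PhiA ε q) := hy
      exact (bplus_injOn D hx₀ ha hy').symm
    · right
      obtain ⟨b', t'⟩ := q
      have hs' := D.PhiB_shift b' t'
      have hy' : bplus s w2 (PhiA ε (b, t)) = bplus s w2 (PhiA ε (b', t' + gG s w2 ε b')) := by
        have e : bplus s w2 (PhiA ε (b', t' + gG s w2 ε b')) =
            PhiB s w2 ε (b', t' + gG s w2 ε b') := rfl
        rw [e, hs']
        exact hy
      have hx := bplus_injOn D hx₀ (D.PhiA_mem _) hy'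
      have hb : b = b' := PhiA_eq_base hx
      subst hb
      have e1 : t - gG s w2 ε b = t + -gG s w2 ε b := by ring
      have e2 : t' = t' + gG s w2 ε b + -gG s w2 ε b := by ring
      rw [e1, PhiA_add, hx, ← PhiA_add, ← e2]

end rigBA

end Crest.Agent.Helper82
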