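/-
Helper82 — S0175 project, Part II, package HY-b: three small structural facts proved directly
(so that HY-b does not wait for the packages DN and HY-a):

* `torus_subset_Adom` : the open torus lies in the domain of the contact maps;
* `PhiA_mem_torus`    : the apexes lie in the torus;
* `PhiB_shift_of`     : the second base vertex is `PhiB` at the shifted angle.

`HYbLeafDeps.toDeps` fills the dependency record `HYbDeps` of `HYbCore.lean` from the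
facts of SH-a, G1, CG, RG1, RG3 alone.
-/
import Crest.Agent.Helper82.Geom.HYbCore

set_option autoImplicit false
open MeasureTheory Set
open scoped ENNReal
open Crest.AnalysisR.OT
open Crest.Agent.Helper32

namespace Crest.Agent.Helper82

section leaf
variable {k : ℕ} {s w2 ε : ℝ}

/-- the open torus lies in the domain `Adom` of the contact maps -/
theorem torus_subset_Adom (hp : GoodParams s w2 ε) : (torus ε : Set (MS k)) ⊆ Adom s w2 := by
  intro x hx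
  obtain ⟨h1, h2, h3⟩ := torus_bounds hp.hε hx
  have hε := hp.hε
  refine ⟨?_, ?_⟩
  · intro h0
    rw [h0, norm_zero] at h1
    nlinarith
  · have hd := hp.hdom
    have hw : (0:ℝ) < 4 * w2 ^ 4 := by
      have : w2 ≠ 0 := by
        intro h
        have h' := hp.hw2
        rw [h] at h'
        exact absurd h' (not_lt.2 (Real.sqrt_nonneg _))
      positivity
    have hq : (0:ℝ) < (2 * w2 ^ 2 + 1) ^ 2 := by positivity
    have e1 : ‖x.1‖ ^ 2 / (4 * w2 ^ 4) ≤ 3 * ε / (4 * w2 ^ 4) :=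
      div_le_div_of_nonneg_right h2.le hw.le
    have e2 : 4 * ‖x.2‖ ^ 2 / (2 * w2 ^ 2 + 1) ^ 2 ≤ 4 * ε ^ 2 / (2 * w2 ^ 2 + 1) ^ 2 := by
      apply div_le_div_of_nonneg_right _ hq.le
      nlinarith [norm_nonneg x.2]
    show shF s w2 (‖x.1‖ ^ 2) (‖x.2‖ ^ 2) < 0
    unfold shF
    linarith

/-- the apexes lie in the torus -/
theorem PhiA_mem_torus (p : ↥(Ybase k ε) × ℝ) : PhiA ε p ∈ torus ε := by
  obtain ⟨b, t⟩ := p
  have hb := b.2.2
  have h := PhiA_base ε b t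
  show (‖(PhiA ε (b, t)).1‖ ^ 2 - 2 * ε) ^ 2 + ‖(PhiA ε (b, t)).2‖ ^ 2 < ε ^ 2
  have h1 : ‖(PhiA ε (b, t)).1‖ = b.1.1 := congrArg Prod.fst h
  have h2 : (PhiA ε (b, t)).2 = b.1.2 := congrArg Prod.snd h
  rw [h1, h2]
  exact hb

theorem wA_rotM (s w2 : ℝ) (t : ℝ) (x : MS k) : wA s w2 (rotM t x) = wA s w2 x := by
  unfold wA
  rw [norm_rotM_fst]
  rfl

/-- `betaC` for `σ = -1` is the conjugate of `betaC` for `σ = 1`; hence the quotient `ω` has
modulus one and `exp (i arg ω) = ω` -/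
theorem exp_arg_betaC (s w r : ℝ) (hw : 0 < w) (hw' : 2 * w ^ 2 < 1) :
    Complex.exp (2 * (Real.pi : ℂ) *
        ((Complex.arg (betaC s w (-1) r / betaC s w 1 r) / (2 * Real.pi) : ℝ) : ℂ) * Complex.I) *
      betaC s w 1 r = betaC s w (-1) r := by
  have hre : (betaC s w 1 r).re ≠ 0 := by
    show -(shP w / (2 * w ^ 2)) ≠ 0
    have hP : 0 < shP w := by unfold shP; linarith
    have : 0 < shP w / (2 * w ^ 2) := by positivity
    linarith
  have hne : betaC s w 1 r ≠ 0 := fun h => hre (by rw [h]; rfl)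
  have hconj : betaC s w (-1) r = (starRingEnd ℂ) (betaC s w 1 r) := by
    apply Complex.ext
    · rfl
    · show -1 * shL23 s w / (2 * r) = -(1 * shL23 s w / (2 * r))
      ring
  have hnorm : ‖betaC s w (-1) r / betaC s w 1 r‖ = 1 := by
    rw [norm_div, hconj, Complex.norm_conj, div_self (norm_ne_zero_iff.2 hne)]
  have hexp : (2 * (Real.pi : ℂ) *
      ((Complex.arg (betaC s w (-1) r / betaC s w 1 r) / (2 * Real.pi) : ℝ) : ℂ) * Complex.I) =
      (Complex.arg (betaC s w (-1) r / betaC s w 1 r) : ℂ) * Complex.I := by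
    have hpi : (Real.pi : ℂ) ≠ 0 := Complex.ofReal_ne_zero.2 Real.pi_ne_zero
    push_cast
    field_simp
  rw [hexp]
  have h := Complex.norm_mul_exp_arg_mul_I (betaC s w (-1) r / betaC s w 1 r)
  rw [hnorm, Complex.ofReal_one, one_mul] at h
  rw [h, div_mul_cancel₀ _ hne]

/-- the second base vertex is `PhiB` at the shifted angle -/
theorem PhiB_shift_of (hp : GoodParams s w2 ε) (hwMin : 0 < wMin s)
    (hwA : ∀ x : MS k, x ∈ Adom s w2 →
      wMin s < wA s w2 x ∧ wA s w2 x < w2 ∧ shF s (wA s w2 x) (‖x.1‖ ^ 2) (‖x.2‖ ^ 2) = 0)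
    (b : ↥(Ybase k ε)) (t : ℝ) :
    PhiB s w2 ε (b, t + gG s w2 ε b) = bminus s w2 (PhiA ε (b, t)) := by
  have hx : PhiA ε (b, t) ∈ torus ε := PhiA_mem_torus (b, t)
  obtain ⟨h1, h2, -⟩ := hwA _ (torus_subset_Adom hp hx)
  have hw : 0 < wA s w2 (PhiA ε (b, t)) := lt_trans hwMin h1
  have hw' : 2 * (wA s w2 (PhiA ε (b, t))) ^ 2 < 1 := by
    have := hp.hw2'
    nlinarith
  have hbase := PhiA_base ε b t
  have hn : ‖(PhiA ε (b, t)).1‖ = b.1.1 := congrArg Prod.fst hbase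
  have hb0 : 0 < b.1.1 := b.2.1
  have hn' : ‖((b.1.1 : ℝ) : ℂ)‖ = b.1.1 := by
    rw [Complex.norm_real, Real.norm_eq_abs, abs_of_pos hb0]
  -- the shape of the base point equals the shape of the apex
  have hwb : wA s w2 ((((b.1.1 : ℝ) : ℂ), b.1.2) : MS k) = wA s w2 (PhiA ε (b, t)) := by
    show wA s w2 ((((b.1.1 : ℝ) : ℂ), b.1.2) : MS k) =
      wA s w2 (rotM t ((((b.1.1 : ℝ) : ℂ), b.1.2) : MS k))
    rw [wA_rotM]
  have hg : gG s w2 ε b = Complex.arg (betaC s (wA s w2 (PhiA ε (b, t))) (-1) ‖(PhiA ε (b, t)).1‖ /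
      betaC s (wA s w2 (PhiA ε (b, t))) 1 ‖(PhiA ε (b, t)).1‖) / (2 * Real.pi) := by
    unfold gG omegaG
    rw [hwb]
    show Complex.arg (betaC s (wA s w2 (PhiA ε (b, t))) (-1) ‖((b.1.1 : ℝ) : ℂ)‖ /
      betaC s (wA s w2 (PhiA ε (b, t))) 1 ‖((b.1.1 : ℝ) : ℂ)‖) / (2 * Real.pi) = _
    rw [hn', hn]
  have key := exp_arg_betaC s (wA s w2 (PhiA ε (b, t))) ‖(PhiA ε (b, t)).1‖ hw hw'
  rw [← hg] at key
  unfold PhiB
  rw [PhiA_add]
  unfold bplus bminus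
  rw [wA_rotM]
  unfold bvert
  rw [norm_rotM_fst]
  refine Prod.ext ?_ rfl
  show Complex.exp (2 * (Real.pi : ℂ) * ((gG s w2 ε b : ℝ) : ℂ) * Complex.I) * (PhiA ε (b, t)).1 *
      betaC s (wA s w2 (PhiA ε (b, t))) 1 ‖(PhiA ε (b, t)).1‖ =
    (PhiA ε (b, t)).1 * betaC s (wA s w2 (PhiA ε (b, t))) (-1) ‖(PhiA ε (b, t)).1‖
  rw [← key]
  ring

end leaf

/-- the facts about the concrete geometry used by package HY-b (leaner form: no input from
DN / HY-a) -/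
structure HYbLeafDeps (k : ℕ) (s w2 ε : ℝ) : Prop where
  wMin_pos : 0 < wMin s
  shG_nonneg : ∀ w : ℝ, 0 < w → 2 * w ^ 2 < 1 → 0 ≤ shG s w
  shG_le_three : ∀ w : ℝ, 0 < w → 2 * w ^ 2 < 1 → shG s w ≤ 3
  shH_pos : ∀ w : ℝ, wMin s < w → 2 * w ^ 2 < 1 → 0 < shH s w
  shL12_ge_one : ∀ w : ℝ, 0 < w → 2 * w ^ 2 < 1 → 1 ≤ shL12 s w
  wA_spec : ∀ x : MS k, x ∈ Adom s w2 →
    wMin s < wA s w2 x ∧ wA s w2 x < w2 ∧ shF s (wA s w2 x) (‖x.1‖ ^ 2) (‖x.2‖ ^ 2) = 0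
  pointwise_ineq : ∀ w : ℝ, 0 < w → 2 * w ^ 2 < 1 → ∀ x y z : MS k,
    ENNReal.ofReal (u1 s w x + UB s y + UB s z) ≤ tripleCostM s (x, y, z)
  pointwise_eq : ∀ w : ℝ, 0 < w → 2 * w ^ 2 < 1 → ∀ x y z : MS k,
    tripleCostM s (x, y, z) ≤ ENNReal.ofReal (u1 s w x + UB s y + UB s z) →
    dM x y = shL12 s w ∧ dM x z = shL12 s w ∧ dM y z = shL23 s w ∧
      ((shP w / w : ℝ) : ℂ) * x.1 + (w : ℂ) * (y.1 + z.1) = 0 ∧
      y.2 = -(shC w) • x.2 ∧ z.2 = -(shC w) • x.2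
  pointwise_contact : ∀ w : ℝ, 0 < w → 2 * w ^ 2 < 1 → ∀ x y z : MS k,
    dM x y = shL12 s w → dM x z = shL12 s w → dM y z = shL23 s w →
    ((shP w / w : ℝ) : ℂ) * x.1 + (w : ℂ) * (y.1 + z.1) = 0 →
    y.2 = -(shC w) • x.2 → z.2 = -(shC w) • x.2 →
    u1 s w x + UB s y + UB s z = shG s w ∧
      tripleCostM s (x, y, z) = ENNReal.ofReal (u1 s w x + UB s y + UB s z)
  contact_geom : ∀ w : ℝ, 0 < w → 2 * w ^ 2 < 1 → ∀ x : MS k, x.1 ≠ 0 →
    shF s w (‖x.1‖ ^ 2) (‖x.2‖ ^ 2) = 0 → 0 ≤ shH s w →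
    dM x (bvert s w 1 x) = shL12 s w ∧ dM x (bvert s w (-1) x) = shL12 s w ∧
      dM (bvert s w 1 x) (bvert s w (-1) x) = shL23 s w ∧
      ((shP w / w : ℝ) : ℂ) * x.1 + (w : ℂ) * ((bvert s w 1 x).1 + (bvert s w (-1) x).1) = 0
  rigid : ∀ w : ℝ, 0 < w → 2 * w ^ 2 < 1 → ∀ x y z : MS k, x.1 ≠ 0 →
    dM x y = dM x z → dM y z = shL23 s w →
    ((shP w / w : ℝ) : ℂ) * x.1 + (w : ℂ) * (y.1 + z.1) = 0 →
    y.2 = -(shC w) • x.2 → z.2 = -(shC w) • x.2 →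
    (y = bvert s w 1 x ∧ z = bvert s w (-1) x) ∨ (y = bvert s w (-1) x ∧ z = bvert s w 1 x)
  psiPlus_bplus : ∀ x : MS k, x ∈ Adom s w2 → psiPlus s w2 (bplus s w2 x) = x

theorem HYbLeafDeps.toDeps {k : ℕ} {s w2 ε : ℝ} (hp : GoodParams s w2 ε)
    (L : HYbLeafDeps k s w2 ε) : HYbDeps k s w2 ε where
  wMin_pos := L.wMin_pos
  shG_nonneg := L.shG_nonneg
  shG_le_three := L.shG_le_three
  shH_pos := L.shH_pos
  shL12_ge_one := L.shL12_ge_one
  torus_sub := torus_subset_Adom hp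
  wA_spec := L.wA_spec
  pointwise_ineq := L.pointwise_ineq
  pointwise_eq := L.pointwise_eq
  pointwise_contact := L.pointwise_contact
  contact_geom := L.contact_geom
  rigid := L.rigid
  psiPlus_bplus := L.psiPlus_bplus
  PhiA_mem := fun p => PhiA_mem_torus p
  PhiB_shift := fun b t => PhiB_shift_of hp L.wMin_pos L.wA_spec b t

end Crest.Agent.Helper82
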